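import Mathlib

/-!
# The logarithmic Brunn–Minkowski inequality is stable under direct products

If the logarithmic Brunn–Minkowski inequality holds for the pair `K, L` of origin-symmetric convex
bodies in `ℝ^ι` and for the pair `K', L'` in `ℝ^κ`, then it holds for the pair `K × K'`, `L × L'`
in `ℝ^(ι ⊕ κ)`.
-/

open MeasureTheory Set

namespace Vale.Agent.Results.P227.DirectProducts

variable {ι κ : Type} [Fintype ι] [Fintype κ]

/-- the support function `h_K(u) = max {x · u | x ∈ K}` -/
noncomputable def supp (K : Set (ι → ℝ)) (u : ι → ℝ) : ℝ := sSup ((fun x => x ⬝ᵥ u) '' K)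

/-- an origin-symmetric convex body of `ℝ^ι` -/
structure SymBody (K : Set (ι → ℝ)) : Prop where
  convex : Convex ℝ K
  compact : IsCompact K
  interior : (interior K).Nonempty
  symm : ∀ x ∈ K, -x ∈ K

/-- the logarithmic combination `(1 - lam) K +₀ lam L`, the Wulff body of `h_K^(1-lam) h_L^lam` -/
noncomputable def logSum (lam : ℝ) (K L : Set (ι → ℝ)) : Set (ι → ℝ) :=
  {x | ∀ u : ι → ℝ, u ⬝ᵥ u = 1 → x ⬝ᵥ u ≤ supp K u ^ (1 - lam) * supp L u ^ lam}

/-- the logarithmic Brunn–Minkowski inequality for the pair `K, L` and the parameter `lam` -/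
def LogBM (lam : ℝ) (K L : Set (ι → ℝ)) : Prop :=
  volume K ^ (1 - lam) * volume L ^ lam ≤ volume (logSum lam K L)

/-- the direct product of two sets, a subset of `ℝ^(ι ⊕ κ)` -/
def directProd (K : Set (ι → ℝ)) (K' : Set (κ → ℝ)) : Set (ι ⊕ κ → ℝ) :=
  {x | (fun i => x (Sum.inl i)) ∈ K ∧ (fun j => x (Sum.inr j)) ∈ K'}

omit [Fintype ι] in
theorem SymBody.nonempty {K : Set (ι → ℝ)} (hK : SymBody K) : K.Nonempty :=
  hK.interior.mono interior_subset

theorem SymBody.zero_mem {K : Set (ι → ℝ)} (hK : SymBody K) : (0 : ι → ℝ) ∈ K := by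
  obtain ⟨x, hx⟩ := hK.nonempty
  have h := hK.convex hx (hK.symm x hx) (a := 1 / 2) (b := 1 / 2) (by norm_num) (by norm_num)
    (by norm_num)
  have h0 : (1 / 2 : ℝ) • x + (1 / 2 : ℝ) • -x = 0 := by
    rw [smul_neg, add_neg_cancel]
  rwa [h0] at h

theorem dot_cont (u : ι → ℝ) : Continuous fun x : ι → ℝ => x ⬝ᵥ u := by
  unfold dotProduct
  fun_prop

theorem SymBody.le_supp {K : Set (ι → ℝ)} (hK : SymBody K) {x : ι → ℝ} (hx : x ∈ K)
    (u : ι → ℝ) : x ⬝ᵥ u ≤ supp K u :=
  le_csSup (hK.compact.image (dot_cont u)).bddAbove ⟨x, hx, rfl⟩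

theorem SymBody.supp_attained {K : Set (ι → ℝ)} (hK : SymBody K) (u : ι → ℝ) :
    ∃ x ∈ K, supp K u = x ⬝ᵥ u :=
  hK.compact.exists_sSup_image_eq hK.nonempty (dot_cont u).continuousOn

theorem SymBody.supp_nonneg {K : Set (ι → ℝ)} (hK : SymBody K) (u : ι → ℝ) : 0 ≤ supp K u := by
  have := hK.le_supp hK.zero_mem u
  simpa using this

theorem supp_smul {K : Set (ι → ℝ)} (hK : SymBody K) {t : ℝ} (ht : 0 ≤ t) (u : ι → ℝ) :
    supp K (t • u) = t * supp K u := by
  apply le_antisymm
  · obtain ⟨x, hx, h⟩ := hK.supp_attained (t • u)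
    rw [h, dotProduct_smul, smul_eq_mul]
    exact mul_le_mul_of_nonneg_left (hK.le_supp hx u) ht
  · obtain ⟨x, hx, h⟩ := hK.supp_attained u
    rw [h, ← smul_eq_mul, ← dotProduct_smul]
    exact hK.le_supp hx _

/-- the inequalities defining the Wulff body hold for all vectors `u`, not only unit vectors -/
theorem logSum_all {lam : ℝ} {K L : Set (ι → ℝ)} (hK : SymBody K) (hL : SymBody L)
    {x : ι → ℝ} (hx : x ∈ logSum lam K L) (u : ι → ℝ) :
    x ⬝ᵥ u ≤ supp K u ^ (1 - lam) * supp L u ^ lam := by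
  by_cases hu : u = 0
  · subst hu
    rw [dotProduct_zero]
    have h1 := hK.supp_nonneg 0
    have h2 := hL.supp_nonneg 0
    positivity
  have hpos : 0 < u ⬝ᵥ u := by
    have h1 : 0 ≤ u ⬝ᵥ u := Finset.sum_nonneg fun i _ => mul_self_nonneg _
    rcases h1.lt_or_eq with h | h
    · exact h
    · exact absurd (dotProduct_self_eq_zero.1 h.symm) hu
  set t : ℝ := Real.sqrt (u ⬝ᵥ u) with ht
  have htpos : 0 < t := Real.sqrt_pos.2 hpos
  have htt : t * t = u ⬝ᵥ u := Real.mul_self_sqrt hpos.le
  let w : ι → ℝ := t⁻¹ • u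
  have hw : w ⬝ᵥ w = 1 := by
    change (t⁻¹ • u) ⬝ᵥ (t⁻¹ • u) = 1
    rw [dotProduct_smul, smul_dotProduct, smul_eq_mul, smul_eq_mul, ← htt]
    field_simp
  have huw : u = t • w := by
    change u = t • t⁻¹ • u
    rw [smul_smul, mul_inv_cancel₀ htpos.ne', one_smul]
  have h1 := hx w hw
  have hKw := hK.supp_nonneg w
  have hLw := hL.supp_nonneg w
  rw [huw, dotProduct_smul, supp_smul hK htpos.le, supp_smul hL htpos.le, smul_eq_mul,
    Real.mul_rpow htpos.le hKw, Real.mul_rpow htpos.le hLw]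
  have h2 : t ^ (1 - lam) * t ^ lam = t := by
    rw [← Real.rpow_add htpos]
    simp
  calc t * (x ⬝ᵥ w) ≤ t * (supp K w ^ (1 - lam) * supp L w ^ lam) :=
        mul_le_mul_of_nonneg_left h1 htpos.le
    _ = (t ^ (1 - lam) * t ^ lam) * (supp K w ^ (1 - lam) * supp L w ^ lam) := by rw [h2]
    _ = t ^ (1 - lam) * supp K w ^ (1 - lam) * (t ^ lam * supp L w ^ lam) := by ring

/-- Hölder's inequality for two terms -/
theorem holder_two {a b c d lam : ℝ} (ha : 0 ≤ a) (hb : 0 ≤ b) (hc : 0 ≤ c) (hd : 0 ≤ d)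
    (h0 : 0 ≤ lam) (h1 : lam ≤ 1) :
    a ^ (1 - lam) * b ^ lam + c ^ (1 - lam) * d ^ lam ≤ (a + c) ^ (1 - lam) * (b + d) ^ lam := by
  rcases h0.eq_or_lt with h | h0'
  · subst h
    simp
  rcases h1.eq_or_lt with h | h1'
  · subst h
    simp
  have hl : 0 < 1 - lam := by linarith
  rcases (add_nonneg ha hc).eq_or_lt with h | hac
  · have ha0 : a = 0 := by linarith
    have hc0 : c = 0 := by linarith
    rw [ha0, hc0]
    simp [Real.zero_rpow hl.ne']
  rcases (add_nonneg hb hd).eq_or_lt with h | hbd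
  · have hb0 : b = 0 := by linarith
    have hd0 : d = 0 := by linarith
    rw [hb0, hd0]
    simp [Real.zero_rpow h0'.ne']
  have key : ∀ x y : ℝ, 0 ≤ x → 0 ≤ y → x ^ (1 - lam) * y ^ lam ≤
      (a + c) ^ (1 - lam) * (b + d) ^ lam * ((1 - lam) * (x / (a + c)) + lam * (y / (b + d))) := by
    intro x y hx hy
    have h2 := Real.geom_mean_le_arith_mean2_weighted hl.le h0 (div_nonneg hx hac.le)
      (div_nonneg hy hbd.le) (by ring)
    rw [Real.div_rpow hx hac.le, Real.div_rpow hy hbd.le] at h2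
    have h3 : 0 < (a + c) ^ (1 - lam) := Real.rpow_pos_of_pos hac _
    have h4 : 0 < (b + d) ^ lam := Real.rpow_pos_of_pos hbd _
    have h5 : x ^ (1 - lam) * y ^ lam = (a + c) ^ (1 - lam) * (b + d) ^ lam *
        (x ^ (1 - lam) / (a + c) ^ (1 - lam) * (y ^ lam / (b + d) ^ lam)) := by
      field_simp
    rw [h5]
    exact mul_le_mul_of_nonneg_left h2 (by positivity)
  have h2 := key a b ha hb
  have h3 := key c d hc hd
  have h4 : (1 - lam) * (a / (a + c)) + lam * (b / (b + d)) +
      ((1 - lam) * (c / (a + c)) + lam * (d / (b + d))) = 1 := by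
    field_simp
    ring
  calc a ^ (1 - lam) * b ^ lam + c ^ (1 - lam) * d ^ lam ≤
        (a + c) ^ (1 - lam) * (b + d) ^ lam * ((1 - lam) * (a / (a + c)) + lam * (b / (b + d)) +
      ((1 - lam) * (c / (a + c)) + lam * (d / (b + d)))) := by
        rw [mul_add]
        exact add_le_add h2 h3
    _ = (a + c) ^ (1 - lam) * (b + d) ^ lam := by rw [h4, mul_one]

theorem dot_sum (x u : ι ⊕ κ → ℝ) :
    x ⬝ᵥ u = (fun i => x (Sum.inl i)) ⬝ᵥ (fun i => u (Sum.inl i)) +
      (fun j => x (Sum.inr j)) ⬝ᵥ (fun j => u (Sum.inr j)) := by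
  unfold dotProduct
  rw [Fintype.sum_sum_type]

/-- the homeomorphism `ℝ^(ι ⊕ κ) ≃ ℝ^ι × ℝ^κ` as a linear equivalence -/
def split : (ι ⊕ κ → ℝ) ≃ₜ (ι → ℝ) × (κ → ℝ) where
  toFun x := (fun i => x (Sum.inl i), fun j => x (Sum.inr j))
  invFun y := Sum.elim y.1 y.2
  left_inv x := by
    funext s
    cases s <;> rfl
  right_inv y := rfl
  continuous_toFun := by fun_prop
  continuous_invFun := by
    refine continuous_pi fun s => ?_
    cases s
    · exact (continuous_apply _).comp continuous_fst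
    · exact (continuous_apply _).comp continuous_snd

omit [Fintype ι] [Fintype κ] in
theorem directProd_eq (K : Set (ι → ℝ)) (K' : Set (κ → ℝ)) :
    directProd K K' = split ⁻¹' (K ×ˢ K') := rfl

theorem directProd_body {K : Set (ι → ℝ)} {K' : Set (κ → ℝ)} (hK : SymBody K)
    (hK' : SymBody K') : SymBody (directProd K K') where
  convex := by
    intro x hx y hy a b ha hb hab
    exact ⟨hK.convex hx.1 hy.1 ha hb hab, hK'.convex hx.2 hy.2 ha hb hab⟩
  compact := by
    rw [directProd_eq]
    exact split.isCompact_preimage.2 (hK.compact.prod hK'.compact)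
  interior := by
    rw [directProd_eq, ← split.preimage_interior, interior_prod_eq]
    obtain ⟨x, hx⟩ := hK.interior
    obtain ⟨y, hy⟩ := hK'.interior
    exact ⟨split.symm (x, y), by
      change split (split.symm (x, y)) ∈ interior K ×ˢ interior K'
      rw [split.apply_symm_apply]
      exact ⟨hx, hy⟩⟩
  symm := fun x hx => ⟨hK.symm _ hx.1, hK'.symm _ hx.2⟩

theorem volume_directProd (K : Set (ι → ℝ)) (K' : Set (κ → ℝ)) :
    volume (directProd K K') = volume K * volume K' := by
  have h := volume_measurePreserving_sumPiEquivProdPi (fun _ : ι ⊕ κ => ℝ)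
  have h2 := h.measure_preimage_equiv (K ×ˢ K')
  have h3 : volume (K ×ˢ K') = volume K * volume K' := by
    rw [Measure.volume_eq_prod, Measure.prod_prod]
  exact h2.trans h3

theorem supp_directProd {K : Set (ι → ℝ)} {K' : Set (κ → ℝ)} (hK : SymBody K)
    (hK' : SymBody K') (u : ι ⊕ κ → ℝ) :
    supp K (fun i => u (Sum.inl i)) + supp K' (fun j => u (Sum.inr j)) ≤
      supp (directProd K K') u := by
  obtain ⟨x, hx, h1⟩ := hK.supp_attained fun i => u (Sum.inl i)
  obtain ⟨y, hy, h2⟩ := hK'.supp_attained fun j => u (Sum.inr j)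
  rw [h1, h2]
  have h3 : (Sum.elim x y : ι ⊕ κ → ℝ) ∈ directProd K K' := ⟨hx, hy⟩
  have h4 := (directProd_body hK hK').le_supp h3 u
  rw [dot_sum] at h4
  exact h4

/-- The main result: the logarithmic Brunn–Minkowski inequality (for a given parameter `lam`) passes
from two pairs of origin-symmetric convex bodies to the pair of their direct products. -/
theorem result {lam : ℝ} (h0 : 0 ≤ lam) (h1 : lam ≤ 1) {K L : Set (ι → ℝ)} {K' L' : Set (κ → ℝ)}
    (hK : SymBody K) (hL : SymBody L) (hK' : SymBody K') (hL' : SymBody L')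
    (h : LogBM lam K L) (h' : LogBM lam K' L') :
    SymBody (directProd K K') ∧ SymBody (directProd L L') ∧
      LogBM lam (directProd K K') (directProd L L') := by
  refine ⟨directProd_body hK hK', directProd_body hL hL', ?_⟩
  have hsub : directProd (logSum lam K L) (logSum lam K' L') ⊆
      logSum lam (directProd K K') (directProd L L') := by
    intro x hx u _
    have h2 := logSum_all hK hL hx.1 fun i => u (Sum.inl i)
    have h3 := logSum_all hK' hL' hx.2 fun j => u (Sum.inr j)
    rw [dot_sum]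
    refine (add_le_add h2 h3).trans ?_
    refine (holder_two (hK.supp_nonneg _) (hL.supp_nonneg _) (hK'.supp_nonneg _)
      (hL'.supp_nonneg _) h0 h1).trans ?_
    have h4 := supp_directProd hK hK' u
    have h5 := supp_directProd hL hL' u
    have h6 := add_nonneg (hK.supp_nonneg fun i => u (Sum.inl i))
      (hK'.supp_nonneg fun j => u (Sum.inr j))
    have h7 := add_nonneg (hL.supp_nonneg fun i => u (Sum.inl i))
      (hL'.supp_nonneg fun j => u (Sum.inr j))
    exact mul_le_mul (Real.rpow_le_rpow h6 h4 (by linarith)) (Real.rpow_le_rpow h7 h5 h0)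
      (Real.rpow_nonneg h7 _) (Real.rpow_nonneg (h6.trans h4) _)
  unfold LogBM at *
  calc volume (directProd K K') ^ (1 - lam) * volume (directProd L L') ^ lam =
        (volume K ^ (1 - lam) * volume L ^ lam) * (volume K' ^ (1 - lam) * volume L' ^ lam) := by
        rw [volume_directProd, volume_directProd, ENNReal.mul_rpow_of_nonneg _ _ (by linarith),
          ENNReal.mul_rpow_of_nonneg _ _ h0]
        ring
    _ ≤ volume (logSum lam K L) * volume (logSum lam K' L') := mul_le_mul' h h'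
    _ = volume (directProd (logSum lam K L) (logSum lam K' L')) := (volume_directProd _ _).symm
    _ ≤ volume (logSum lam (directProd K K') (directProd L L')) := measure_mono hsub

end Vale.Agent.Results.P227.DirectProducts
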